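import Vale.Agent.P032.S5.H220.NoFr
import Vale.Agent.P032.S5.H450.Sign

/-!
# P032: the frozen events (I) and (A) of a clean five coloured centre do not exist
-/

open Set Filter Topology Metric

noncomputable section

namespace Vale.Agent.P032.S5.H220

open Vale.Agent.P032.Six Vale.Agent.P032.Words Vale.Agent.P032.S5.H122
  Vale.Agent.P032.Words.Pent Vale.Agent.P032.S5.H450

open Vale.Agent.P032.S5.H767 hiding col

variable {U : Fin 6 → Set ℂ} {T : ℂ → Set (Fin 6)} {z : ℂ} {e : Fin 6 → Fin 6}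

/-- **One-sided reduction.** -/
theorem onesided {A B : Set ℝ} (hA : IsOpen A) (hB : IsOpen B) (hAB : Disjoint A B) {u : ℝ}
    (huA : u ∈ closure A) (huB : u ∈ closure B)
    (hcov : ∀ᶠ t in 𝓝 u, t ∈ closure A ∨ t ∈ closure B) {ε : ℝ} (hε : 0 < ε) :
    ∃ b o η : ℝ, |b - u| < ε ∧ (o = 1 ∨ o = -1) ∧ 0 < η ∧ b ∈ closure B ∧
      ∀ s ∈ Ioo 0 η, b + o * s ∈ closure A := by
  obtain ⟨δ, hδ, hball⟩ := Metric.eventually_nhds_iff.1 hcov
  obtain ⟨t, htA, htu⟩ := Metric.mem_closure_iff.1 huA (min δ ε) (lt_min hδ hε)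
  rw [Real.dist_eq] at htu
  have htB : t ∉ closure B := fun h => by
    obtain ⟨v, hv1, hv2⟩ := _root_.mem_closure_iff.1 h A hA htA
    exact Set.disjoint_left.1 hAB hv1 hv2
  have hne : t ≠ u := fun h => htB (h ▸ huB)
  have m1 := min_le_left δ ε
  have m2 := min_le_right δ ε
  rcases lt_or_gt_of_ne hne with hlt | hgt
  · -- the first point of `closure B` after `t`
    set S : Set ℝ := closure B ∩ Icc t u with hS
    have hSc : IsClosed S := isClosed_closure.inter isClosed_Icc
    have hSne : S.Nonempty := ⟨u, huB, hlt.le, le_rfl⟩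
    have hSb : BddBelow S := ⟨t, fun s hs => hs.2.1⟩
    have hmem := hSc.csInf_mem hSne hSb
    have hle : ∀ s ∈ S, sInf S ≤ s := fun s hs => csInf_le hSb hs
    have h1 : t < sInf S := lt_of_le_of_ne hmem.2.1 fun h => htB (h ▸ hmem.1)
    have habs : |u - t| = u - t := abs_of_pos (by linarith)
    refine ⟨sInf S, -1, sInf S - t, ?_, Or.inr rfl, by linarith, hmem.1, fun s hs => ?_⟩
    · rw [abs_lt]
      constructor <;> linarith [hmem.2.1, hmem.2.2]
    · have h2 : sInf S + -1 * s < sInf S := by linarith [hs.1]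
      have h3 : t < sInf S + -1 * s := by linarith [hs.2]
      have h4 := hball (y := sInf S + -1 * s) (by
        rw [Real.dist_eq, abs_lt]
        constructor <;> linarith [hmem.2.1, hmem.2.2])
      refine h4.resolve_right fun h5 => ?_
      have := hle _ ⟨h5, h3.le, by linarith [hmem.2.2]⟩
      linarith
  · set S : Set ℝ := closure B ∩ Icc u t with hS
    have hSc : IsClosed S := isClosed_closure.inter isClosed_Icc
    have hSne : S.Nonempty := ⟨u, huB, le_rfl, hgt.le⟩
    have hSb : BddAbove S := ⟨t, fun s hs => hs.2.2⟩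
    have hmem := hSc.csSup_mem hSne hSb
    have hle : ∀ s ∈ S, s ≤ sSup S := fun s hs => le_csSup hSb hs
    have h1 : sSup S < t := lt_of_le_of_ne hmem.2.2 fun h => htB (h ▸ hmem.1)
    have habs : |u - t| = t - u := by rw [abs_sub_comm]; exact abs_of_pos (by linarith)
    refine ⟨sSup S, 1, t - sSup S, ?_, Or.inl rfl, by linarith, hmem.1, fun s hs => ?_⟩
    · rw [abs_lt]
      constructor <;> linarith [hmem.2.1, hmem.2.2]
    · have h2 : sSup S < sSup S + 1 * s := by linarith [hs.1]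
      have h3 : sSup S + 1 * s < t := by linarith [hs.2]
      have h4 := hball (y := sSup S + 1 * s) (by
        rw [Real.dist_eq, abs_lt]
        constructor <;> linarith [hmem.2.1, hmem.2.2])
      refine h4.resolve_right fun h5 => ?_
      have := hle _ ⟨h5, by linarith [hmem.2.1], h3.le⟩
      linarith

/-- the end point is in the closure of the one-sided interval -/
theorem end_mem {b o η : ℝ} {A : Set ℝ} (hη : 0 < η) (h : ∀ s ∈ Ioo 0 η, b + o * s ∈ closure A) :
    b ∈ closure A := by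
  have h1 : Tendsto (fun s : ℝ => b + o * s) (𝓝[>] 0) (𝓝 b) := by
    have : Continuous fun s : ℝ => b + o * s := by fun_prop
    have h2 := (this.tendsto 0).mono_left (nhdsWithin_le_nhds (s := Ioi 0))
    simpa using h2
  have h2 := isClosed_closure.mem_of_tendsto h1
    (mem_of_superset (Ioo_mem_nhdsGT hη) fun s hs => h s hs : ∀ᶠ s in 𝓝[>] (0 : ℝ), b + o * s ∈ closure A)
  exact h2

/-- letters persist on the closure of the times -/
theorem cl_sub (h : Irr U T) {A : Set ℝ} {c : ℝ} {P : Set (Fin 6)}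
    (hA : ∀ t ∈ A, P ⊆ T (pt z (t + c))) {t : ℝ} (ht : t ∈ closure A) : P ⊆ T (pt z (t + c)) := by
  intro i hi
  have h1 : closure A ⊆ (fun t => pt z (t + c)) ⁻¹' {x | i ∈ T x} := by
    refine closure_minimal (fun t ht => hA t ht hi) ((h.closed i).preimage ?_)
    exact (continuous_pt z).comp (by fun_prop)
  exact h1 ht

theorem cov_of (C : Cn U T z e) {a b x : Fin 6} (h : cvb a b x = true) :
    T z ⊆ insert (e x) (col e b ∪ col e a) := by
  intro i hi
  obtain ⟨y, rfl⟩ := C.bij.2 i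
  have hy5 : y ≠ 5 := (C.pal y).1 hi
  by_cases hyx : y = x
  · exact Or.inl (by rw [hyx])
  · rcases cvb_spec h y hy5 hyx with h1 | h1
    · exact Or.inr (Or.inr ⟨y, h1, rfl⟩)
    · exact Or.inr (Or.inl ⟨y, h1, rfl⟩)

/-- **Half branch at a one-sided end.** -/
theorem hb_pt (C : Cn U T z e) {b o c η : ℝ} (ho : o = 1 ∨ o = -1) (hη : 0 < η) {l m x : Fin 6}
    (hP : ∀ s ∈ Ioo 0 η, col e l ⊆ T (pt z (b + o * s + c)))
    (hP' : col e m ⊆ T (pt z (b + c + 3))) (hT : cvb l m x = true) :
    HB T z (pt z (b + c)) o (e x) := by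
  have hpi : 0 < Real.pi / 3 := by positivity
  refine half_branch C.irr (dist_pt z _) ho (P := col e l) (η := η * (Real.pi / 3))
    (mul_pos hη hpi) (fun t ht => ?_) (C.clean _ ?_) ?_
  · have h1 : z + (pt z (b + c) - z) * cis (o * t) = pt z (b + o * (t / (Real.pi / 3)) + c) := by
      unfold pt
      have e1 : (b + o * (t / (Real.pi / 3)) + c) * (Real.pi / 3) =
          (b + c) * (Real.pi / 3) + o * t := by
        field_simp
        ring
      rw [e1, cis_add]; ring
    rw [h1]
    refine hP _ ⟨div_pos ht.1 hpi, ?_⟩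
    rw [div_lt_iff₀ hpi]
    exact ht.2
  · rw [← pt_three]; exact dist_pt z _
  · rw [← pt_three]
    exact (cov_of C hT).trans (insert_subset_insert (union_subset_union_left _ hP'))

theorem cr_cis' (s t : ℝ) : cr (cis s) (cis t) = Real.sin (t - s) := by
  unfold cr cis
  rw [Complex.exp_ofReal_mul_I_re, Complex.exp_ofReal_mul_I_im, Complex.exp_ofReal_mul_I_re,
    Complex.exp_ofReal_mul_I_im, Real.sin_sub]
  ring

theorem cr_pt (z : ℂ) (s t : ℝ) :
    cr (pt z s - z) (pt z t - z) = Real.sin ((t - s) * (Real.pi / 3)) := by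
  unfold pt
  rw [show z + cis (s * (Real.pi / 3)) - z = cis (s * (Real.pi / 3)) by ring,
    show z + cis (t * (Real.pi / 3)) - z = cis (t * (Real.pi / 3)) by ring, cr_cis']
  congr 1; ring

theorem pt_sum3 (z : ℂ) (b : ℝ) : (pt z b - z) + (pt z (b + 2) - z) + (pt z (b + 4) - z) = 0 := by
  have h1 := pt_sum z b
  have h2 := pt_three z (b + 1)
  rw [show b + 1 + 3 = b + 4 by ring] at h2
  rw [h2]
  linear_combination h1

theorem sin_two_third : Real.sin (2 * (Real.pi / 3)) = √3 / 2 := by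
  have h1 : 2 * (Real.pi / 3) = Real.pi - Real.pi / 3 := by ring
  rw [h1, Real.sin_pi_sub, Real.sin_pi_div_three]

/-- **Three half branches** at 120 degrees -/
theorem three_hb (h : Irr U T) (hz : z ∈ XX U) {b o : ℝ} (ho : o = 1 ∨ o = -1) {x : Fin 6}
    (b0 : HB T z (pt z b) o x) (b2 : HB T z (pt z (b + 2)) o x)
    (b4 : HB T z (pt z (b + 4)) o x) : False := by
  obtain ⟨y, hy, hxy⟩ := h.partner_XX hz x
  have h3 : 0 < √3 / 2 := by positivity
  set c0 := cr (pt z b - z) (y - z) with hc0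
  set c2 := cr (pt z (b + 2) - z) (y - z) with hc2
  set c4 := cr (pt z (b + 4) - z) (y - z) with hc4
  have hsum : c0 + c2 + c4 = 0 := by
    have h1 := pt_sum3 z b
    have h2 : c0 + c2 + c4 =
        cr ((pt z b - z) + (pt z (b + 2) - z) + (pt z (b + 4) - z)) (y - z) := by
      rw [hc0, hc2, hc4]; unfold cr; simp only [Complex.add_re, Complex.add_im]; ring
    rw [h2, h1]; unfold cr; simp
  have hne : ¬ (c0 = 0 ∧ c2 = 0) := by
    rintro ⟨h4, h5⟩
    have h6 : cr (pt z b - z) (pt z (b + 2) - z) = √3 / 2 := by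
      rw [cr_pt, ← sin_two_third]; congr 1; ring
    have h7 : ((√3 / 2 : ℝ) : ℂ) * (y - z) = 0 := by
      rw [← h6]
      apply Complex.ext
      · have : (((cr (pt z b - z) (pt z (b + 2) - z) : ℝ) : ℂ) * (y - z)).re =
            -c2 * (pt z b - z).re + c0 * (pt z (b + 2) - z).re := by
          rw [Complex.re_ofReal_mul, hc0, hc2]; unfold cr; ring
        rw [this, h4, h5]; simp
      · have : (((cr (pt z b - z) (pt z (b + 2) - z) : ℝ) : ℂ) * (y - z)).im =
            -c2 * (pt z b - z).im + c0 * (pt z (b + 2) - z).im := by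
          rw [Complex.im_ofReal_mul, hc0, hc2]; unfold cr; ring
        rw [this, h4, h5]; simp
    rcases mul_eq_zero.1 h7 with h8 | h8
    · exact h3.ne' (by exact_mod_cast h8)
    · rw [dist_comm, dist_eq_norm, h8, norm_zero] at hy
      exact zero_ne_one hy
  have key : ∀ {u1 u2 : ℂ}, HB T z u1 o x → HB T z u2 o x → 0 < o * cr (u1 - z) (y - z) →
      o * cr (u2 - z) (y - z) < 0 → False := fun B1 B2 s1 s2 =>
    two_branches h B1 B2 hy hxy s1 s2
  have ho0 : o ≠ 0 := by rcases ho with rfl | rfl <;> norm_num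
  have hs : o * c0 + o * c2 + o * c4 = 0 := by linear_combination o * hsum
  have hn : ¬ (o * c0 = 0 ∧ o * c2 = 0) := fun h4 => hne
    ⟨(mul_eq_zero.1 h4.1).resolve_left ho0, (mul_eq_zero.1 h4.2).resolve_left ho0⟩
  rcases lt_trichotomy (o * c0) 0 with p0 | p0 | p0 <;>
  rcases lt_trichotomy (o * c2) 0 with p2 | p2 | p2 <;>
  rcases lt_trichotomy (o * c4) 0 with p4 | p4 | p4 <;>
  first
  | exact key b0 b2 p0 p2
  | exact key b0 b4 p0 p4
  | exact key b2 b0 p2 p0
  | exact key b2 b4 p2 p4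
  | exact key b4 b0 p4 p0
  | exact key b4 b2 p4 p2
  | exact hn ⟨p0, p2⟩
  | linarith

/-- the two sets of times of a frozen event are disjoint -/
theorem disj_AB (C : Cn U T z e) {A B : Set ℝ} (hA : IsOpen A) (hB : IsOpen B) {c : ℝ}
    (h1 : ∀ t ∈ A, col e 5 ⊆ T (pt z (t + c))) (h2 : ∀ t ∈ B, col e 5 ⊆ T (pt z (t + c + 1))) :
    Disjoint A B := by
  rw [Set.disjoint_left]
  intro t htA htB
  have h5 : e 5 ∈ col e 5 := ⟨5, by simp [ixs], rfl⟩
  have hev : ∀ᶠ v in 𝓝 (t + c), e 5 ∈ T (pt z v) := by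
    have h3 : Tendsto (fun v : ℝ => v - c) (𝓝 (t + c)) (𝓝 t) := by
      have : Continuous fun v : ℝ => v - c := by fun_prop
      have h4 := this.tendsto (t + c)
      simpa using h4
    filter_upwards [h3.eventually (hA.mem_nhds htA)] with v hv
    have := h1 _ hv h5
    rwa [show v - c + c = v by ring] at this
  exact arc_free C.irr (dist_pt z (t + c)) (ev_circle z hev) (dist_pt z (t + c + 1))
    (dist_pt_one z (t + c)) (h2 t htB h5)

/-- **(I)** -/
theorem froz_I : Fz (fx 0) (fy 0) := by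
  intro U T z e C u A B hA hB huA huB hcov hAx hBy
  have hd : Disjoint A B := disj_AB C hA hB (c := 1) (fun t ht => by
      have := hAx t ht 1; simpa [fx] using this) (fun t ht => by
      have := hBy t ht 2
      rw [show t + 1 + 1 = t + (((2 : Fin 6).val : ℕ) : ℝ) by push_cast; norm_num; ring]
      simpa [fy] using this)
  obtain ⟨b, o, η, -, ho, hη, hbB, hbA⟩ := onesided hA hB hd huA huB hcov one_pos
  have hx : ∀ (k : Fin 6) (c : ℝ), (k.val : ℝ) = c → ∀ s ∈ Ioo 0 η,
      col e (fx 0 k) ⊆ T (pt z (b + o * s + c)) := by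
    rintro k _ rfl s hs
    exact cl_sub C.irr (fun t ht => hAx t ht k) (hbA s hs)
  have hy : ∀ (k : Fin 6) (c : ℝ), (k.val : ℝ) = c → col e (fy 0 k) ⊆ T (pt z (b + c)) := by
    rintro k _ rfl
    exact cl_sub C.irr (fun t ht => hBy t ht k) hbB
  refine three_hb C.irr C.mem_XX (b := b) (o := o) (x := e 4) ho ?_ ?_ ?_
  · have := hb_pt C (b := b) (c := 0) ho hη (l := 0) (m := 2) (x := 4)
      (fun s hs => hx 0 0 (by simp) s hs)
      (by rw [show b + 0 + 3 = b + 3 by ring]; exact hy 3 3 (by norm_num)) (by decide)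
    simpa using this
  · exact hb_pt C (b := b) (c := 2) ho hη (l := 0) (m := 2) (x := 4)
      (fun s hs => hx 2 2 (by norm_num) s hs)
      (by rw [show b + 2 + 3 = b + 5 by ring]; exact hy 5 5 (by norm_num)) (by decide)
  · exact hb_pt C (b := b) (c := 4) ho hη (l := 0) (m := 2) (x := 4)
      (fun s hs => hx 4 4 (by norm_num) s hs)
      (by
        rw [show b + 4 + 3 = b + 1 + 6 by ring, pt_six]
        exact hy 1 1 (by norm_num)) (by decide)

theorem sin_third_pos : 0 < Real.sin (Real.pi / 3) := by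
  rw [Real.sin_pi_div_three]; positivity

/-- **(A)** -/
theorem froz_A : Fz (fx 2) (fy 2) := by
  intro U T z e C u A B hA hB huA huB hcov hAx hBy
  have hd : Disjoint A B := disj_AB C hA hB (c := 1) (fun t ht => by
      have := hAx t ht 1; simpa [fx] using this) (fun t ht => by
      have := hBy t ht 2
      rw [show t + 1 + 1 = t + (((2 : Fin 6).val : ℕ) : ℝ) by push_cast; norm_num; ring]
      simpa [fy] using this)
  obtain ⟨b, o, η, -, ho, hη, hbB, hbA⟩ := onesided hA hB hd huA huB hcov one_pos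
  have hx : ∀ (k : Fin 6) (c : ℝ), (k.val : ℝ) = c → ∀ s ∈ Ioo 0 η,
      col e (fx 2 k) ⊆ T (pt z (b + o * s + c)) := by
    rintro k _ rfl s hs
    exact cl_sub C.irr (fun t ht => hAx t ht k) (hbA s hs)
  have hy : ∀ (k : Fin 6) (c : ℝ), (k.val : ℝ) = c → col e (fy 2 k) ⊆ T (pt z (b + c)) := by
    rintro k _ rfl
    exact cl_sub C.irr (fun t ht => hBy t ht k) hbB
  have h0 : HB T z (pt z (b + 0)) o (e 4) :=
    hb_pt C (b := b) (c := 0) ho hη (l := 0) (m := 2) (x := 4)
      (fun s hs => hx 0 0 (by simp) s hs)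
      (by rw [show b + 0 + 3 = b + 3 by ring]; exact hy 3 3 (by norm_num)) (by decide)
  have h4 : HB T z (pt z (b + 4)) o (e 4) :=
    hb_pt C (b := b) (c := 4) ho hη (l := 0) (m := 2) (x := 4)
      (fun s hs => hx 4 4 (by norm_num) s hs)
      (by
        rw [show b + 4 + 3 = b + 1 + 6 by ring, pt_six]
        exact hy 1 1 (by norm_num)) (by decide)
  have h5 : e 4 ∈ Pal U (pt z (b + 5)) := by
    refine C.irr.sub _ (hy 5 5 (by norm_num) ⟨4, ?_, rfl⟩)
    simp [fy, ixs]
  have hdz : dist z (pt z (b + 5)) = 1 := by rw [dist_comm]; exact dist_pt z _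
  have c1 : cr (pt z (b + 0) - z) (pt z (b + 5) - z) = -Real.sin (Real.pi / 3) := by
    rw [cr_pt, show (b + 5 - (b + 0)) * (Real.pi / 3) = -(Real.pi / 3) + 2 * Real.pi by ring,
      Real.sin_add_two_pi, Real.sin_neg]
  have c2 : cr (pt z (b + 4) - z) (pt z (b + 5) - z) = Real.sin (Real.pi / 3) := by
    rw [cr_pt]; congr 1; ring
  have hs := sin_third_pos
  rcases ho with rfl | rfl
  · exact two_branches C.irr h4 h0 hdz h5 (by rw [c2]; linarith) (by rw [c1]; linarith)
  · exact two_branches C.irr h0 h4 hdz h5 (by rw [c1]; linarith) (by rw [c2]; linarith)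

end Vale.Agent.P032.S5.H220
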