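import Vale.Agent.P032.S5.H220.FrozIA

/-!
# P032: the frozen event (II) of a clean five coloured centre does not exist
-/

open Set Filter Topology Metric

noncomputable section

namespace Vale.Agent.P032.S5.H220

open Vale.Agent.P032.Six Vale.Agent.P032.Words Vale.Agent.P032.S5.H122
  Vale.Agent.P032.Words.Pent Vale.Agent.P032.S5.H450

open Vale.Agent.P032.S5.H767 hiding col

variable {U : Fin 6 → Set ℂ} {T : ℂ → Set (Fin 6)} {z : ℂ} {e : Fin 6 → Fin 6}

/-- **Half branch**, one more colour which is known to be absent on the branch -/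
theorem half_branch2 (h : Irr U T) {u : ℂ} {o : ℝ} {x x' : Fin 6} (hu : dist u z = 1)
    (ho : o = 1 ∨ o = -1) {P : Set (Fin 6)} {η η' : ℝ} (hη : 0 < η) (hη' : 0 < η')
    (hP : ∀ t ∈ Ioo 0 η, P ⊆ T (z + (u - z) * cis (o * t)))
    (h3 : (T (2 * z - u)).ncard ≤ 3)
    (hx' : ∀ t ∈ Ioo 0 η', x' ∉ T (z + (u - z) * (cis (o * t) - 1)))
    (hT : T z ⊆ insert x (insert x' (T (2 * z - u) ∪ P))) :
    HB T z u o x := by
  have hnear : ∀ᶠ t in 𝓝 (0 : ℝ), T (z + (u - z) * (cis (o * t) - 1)) ⊆ T z := by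
    have h1 := (continuous_hb z u o).tendsto 0
    rw [hb_zero] at h1
    exact h1.eventually (h.nhd z)
  obtain ⟨ε, hε, hball⟩ := Metric.eventually_nhds_iff.1 hnear
  refine ⟨min ε (min η (min η' 1)), lt_min hε (lt_min hη (lt_min hη' one_pos)), fun t ht => ?_⟩
  have a1 : t < ε := ht.2.trans_le (min_le_left _ _)
  have a2 : t < η := ht.2.trans_le ((min_le_right _ _).trans (min_le_left _ _))
  have a4 : t < η' := ht.2.trans_le ((min_le_right _ _).trans
    ((min_le_right _ _).trans (min_le_left _ _)))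
  have a3 : t < 1 := ht.2.trans_le ((min_le_right _ _).trans
    ((min_le_right _ _).trans (min_le_right _ _)))
  have hsub := hball (y := t) (by rw [Real.dist_eq, sub_zero, abs_of_pos ht.1]; exact a1)
  have hx0 := hx' t ⟨ht.1, a4⟩
  set g := z + (u - z) * cis (o * t) with hg
  set w := z + (u - z) * (cis (o * t) - 1) with hw
  have hgz : dist g z = 1 := dist_rot hu _
  have hwy : dist w (2 * z - u) = 1 := by
    rw [dist_eq_norm, show w - (2 * z - u) = g - z by rw [hw, hg]; ring, ← dist_eq_norm]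
    exact hgz
  have hwg : dist g w = 1 := by
    rw [dist_eq_norm, show g - w = u - z by rw [hw, hg]; ring, ← dist_eq_norm]
    exact hu
  have hne : u - z ≠ 0 := by
    intro h6
    rw [dist_eq_norm, h6, norm_zero] at hu
    exact zero_ne_one hu
  have ho' : -o = 1 ∨ -o = -1 := by
    rcases ho with rfl | rfl
    · exact Or.inr rfl
    · exact Or.inl (by norm_num)
  obtain ⟨n1, n2⟩ := cis_ne ho' ht.1 a3
  rw [show -(-o * t) = o * t by ring] at n1 n2
  -- the colours of `P` are absent at `w`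
  have hno : ∀ i ∈ P, i ∉ T w := by
    intro i hi hcon
    have hst : ∀ᶠ q in 𝓝[sphere z 1] g, i ∈ Pal U q := by
      have h1 : ∀ᶠ q in 𝓝[sphere z 1] (z + (u - z) * cis (o * t)), i ∈ T q := by
        rw [eventually_circle (dist_rot hu _)]
        have h2 : ∀ᶠ s in 𝓝 (0 : ℝ), t + o * s ∈ Ioo 0 η := by
          have hc : Continuous fun s : ℝ => t + o * s := by fun_prop
          refine hc.continuousAt.eventually (isOpen_Ioo.mem_nhds ?_)
          show t + o * 0 ∈ Ioo 0 η
          rw [mul_zero, add_zero]; exact ⟨ht.1, a2⟩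
        filter_upwards [h2] with s hs
        have e : z + (z + (u - z) * cis (o * t) - z) * cis s =
            z + (u - z) * cis (o * (t + o * s)) := by
          have e2 : o * (t + o * s) = o * t + s := by
            rcases ho with rfl | rfl <;> ring
          rw [e2, H767.cis_add]; ring
        rw [e]
        exact hP _ hs hi
      exact h1.mono fun q hq => h.sub q hq
    rcases h.mx.partner_line hgz hst hwg (h.sub _ hcon) with h3 | h3
    · apply n1
      have : (u - z) * (cis (o * t) - 1) = (u - z) * 0 := by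
        rw [hw] at h3; linear_combination h3
      have := mul_left_cancel₀ hne this
      linear_combination this
    · apply n2
      have : (u - z) * (cis (o * t) + 1) = (u - z) * 0 := by
        rw [hw, hg] at h3; linear_combination -h3
      have := mul_left_cancel₀ hne this
      linear_combination this
  by_contra hx
  refine h.not_sub hwy h3 fun i hi => ?_
  rcases hT (hsub hi) with rfl | rfl | h5 | h5
  · exact absurd hi hx
  · exact absurd hi hx0
  · exact h5
  · exact absurd hi (hno i h5)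

/-- the point of the cell at `y_2` -/
def cell (z : ℂ) (β α : ℝ) : ℂ := pt z (β + 1) + pt z (α + 3) - z

theorem cell_cont (z : ℂ) : Continuous fun p : ℝ × ℝ => cell z p.1 p.2 := by
  unfold cell
  have h1 : Continuous fun p : ℝ × ℝ => pt z (p.1 + 1) := (continuous_pt z).comp (by fun_prop)
  have h2 : Continuous fun p : ℝ × ℝ => pt z (p.2 + 3) := (continuous_pt z).comp (by fun_prop)
  exact (h1.add h2).sub continuous_const

theorem cell_self (z : ℂ) (b : ℝ) : cell z b b = pt z (b + 2) := by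
  have h1 := pt_sum z (b + 1)
  rw [show b + 1 + 2 = b + 3 by ring, show b + 1 + 1 = b + 2 by ring] at h1
  unfold cell
  linear_combination h1

theorem cell_dist1 (z : ℂ) (β α : ℝ) : dist (pt z (β + 1)) (cell z β α) = 1 := by
  rw [dist_comm, dist_eq_norm, show cell z β α - pt z (β + 1) = pt z (α + 3) - z by
    unfold cell; ring, ← dist_eq_norm]
  exact dist_pt z _

theorem cell_dist2 (z : ℂ) (β α : ℝ) : dist (pt z (α + 3)) (cell z β α) = 1 := by
  rw [dist_comm, dist_eq_norm, show cell z β α - pt z (α + 3) = pt z (β + 1) - z by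
    unfold cell; ring, ← dist_eq_norm]
  exact dist_pt z _

theorem cell_sq (z : ℂ) (β b : ℝ) :
    dist (cell z β b) z ^ 2 = 2 + 2 * Real.cos ((2 - (β - b)) * (Real.pi / 3)) := by
  have h1 : cell z β b - z = cis ((β + 1) * (Real.pi / 3)) + cis ((b + 3) * (Real.pi / 3)) := by
    unfold cell pt; ring
  have h2 : (2 - (β - b)) * (Real.pi / 3) =
      (b + 3) * (Real.pi / 3) - (β + 1) * (Real.pi / 3) := by ring
  rw [dist_eq_norm, h1, Complex.sq_norm, Complex.normSq_apply, h2, Real.cos_sub]
  unfold cis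
  simp only [Complex.add_re, Complex.add_im, Complex.exp_ofReal_mul_I_re,
    Complex.exp_ofReal_mul_I_im]
  have s1 := Real.sin_sq_add_cos_sq ((β + 1) * (Real.pi / 3))
  have s2 := Real.sin_sq_add_cos_sq ((b + 3) * (Real.pi / 3))
  nlinarith

theorem cos_two_third : Real.cos (2 * (Real.pi / 3)) = -(1 / 2) := by
  have h1 : 2 * (Real.pi / 3) = Real.pi - Real.pi / 3 := by ring
  rw [h1, Real.cos_pi_sub, Real.cos_pi_div_three]

/-- the cell point moves out of the unit circle about `z` for `o = 1`, into it for `o = -1` -/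
theorem cell_out (z : ℂ) {b s : ℝ} (hs : 0 < s) (hs1 : s < 1) : 1 < dist (cell z (b + s) b) z := by
  have h1 := cell_sq z (b + s) b
  have hpi := Real.pi_pos
  have h2 : Real.cos (2 * (Real.pi / 3)) < Real.cos ((2 - (b + s - b)) * (Real.pi / 3)) := by
    refine Real.cos_lt_cos_of_nonneg_of_le_pi ?_ ?_ ?_
    · have : 0 ≤ 2 - (b + s - b) := by linarith
      positivity
    · nlinarith
    · have : 2 - (b + s - b) < 2 := by linarith
      nlinarith
  rw [cos_two_third] at h2
  have h0 : 0 ≤ dist (cell z (b + s) b) z := dist_nonneg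
  nlinarith

theorem cell_in (z : ℂ) {b s : ℝ} (hs : 0 < s) (hs1 : s < 1) : dist (cell z (b - s) b) z < 1 := by
  have h1 := cell_sq z (b - s) b
  have hpi := Real.pi_pos
  have h2 : Real.cos ((2 - (b - s - b)) * (Real.pi / 3)) < Real.cos (2 * (Real.pi / 3)) := by
    refine Real.cos_lt_cos_of_nonneg_of_le_pi ?_ ?_ ?_
    · positivity
    · have : 2 - (b - s - b) < 3 := by linarith
      nlinarith
    · have : 2 < 2 - (b - s - b) := by linarith
      nlinarith
  rw [cos_two_third] at h2
  have h0 : 0 ≤ dist (cell z (b - s) b) z := dist_nonneg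
  nlinarith

/-- **The cell at `y_2`**: the colour `e 0` is absent on the half branch at `y_0`. -/
theorem cell_free (C : Cn U T z e) {A B : Set ℝ} (hB : IsOpen B) {b o η : ℝ}
    (ho : o = 1 ∨ o = -1) (hη : 0 < η) (hbB : b ∈ closure B)
    (hx : ∀ s ∈ Ioo 0 η, col e 5 ⊆ T (pt z (b + o * s + 1)))
    (hy : ∀ α ∈ B, col e 1 ⊆ T (pt z (α + 3)))
    (h0 : col e 0 ⊆ T (pt z (b + 2))) (h5 : col e 5 ⊆ T (pt z (b + 2))) :
    ∃ η' > 0, ∀ t ∈ Ioo 0 η', e 0 ∉ T (z + (pt z b - z) * (cis (o * t) - 1)) := by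
  have hTy : ∀ i ∈ T (pt z (b + 2)), i = e 0 ∨ i = e 1 ∨ i = e 5 := by
    have h3 := C.clean _ (dist_pt z (b + 2))
    rw [← C.card] at h3
    have key : ∀ S : Finset (Fin 6), S.card ≤ 3 → ixs 0 ⊆ S → ixs 5 ⊆ S → S = {0, 1, 5} := by
      decide +kernel
    have h4 := key _ h3 (col_sub.1 h0) (col_sub.1 h5)
    intro i hi
    obtain ⟨l, rfl⟩ := C.bij.2 i
    have h6 : l ∈ Sx e (T (pt z (b + 2))) := mem_Sx.2 hi
    rw [h4] at h6
    simp only [Finset.mem_insert, Finset.mem_singleton] at h6
    rcases h6 with rfl | rfl | rfl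
    · exact Or.inl rfl
    · exact Or.inr (Or.inl rfl)
    · exact Or.inr (Or.inr rfl)
  -- good pairs
  have hgood : ∀ᶠ p : ℝ × ℝ in 𝓝 (b, b), T (cell z p.1 p.2) ⊆ T (pt z (b + 2)) ∧
      cell z p.1 p.2 ≠ z ∧ pt z (p.2 + 3) ≠ pt z (p.1 + 1) := by
    have hc := (cell_cont z).tendsto (b, b)
    simp only [cell_self] at hc
    have hne1 : pt z (b + 2) ≠ z := by
      intro h; have := dist_pt z (b + 2); rw [h, dist_self] at this; exact zero_ne_one this
    have hne2 : pt z (b + 3) ≠ pt z (b + 1) := by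
      have := (pt_off z (b + 1)).1
      rwa [show b + 1 + 2 = b + 3 by ring] at this
    have c1 : Continuous fun p : ℝ × ℝ => pt z (p.1 + 1) := (continuous_pt z).comp (by fun_prop)
    have c2 : Continuous fun p : ℝ × ℝ => pt z (p.2 + 3) := (continuous_pt z).comp (by fun_prop)
    have e3 : ∀ᶠ p : ℝ × ℝ in 𝓝 (b, b), pt z (p.2 + 3) ≠ pt z (p.1 + 1) :=
      (isOpen_ne_fun c2 c1).mem_nhds hne2
    filter_upwards [hc.eventually (C.irr.nhd _), hc.eventually (isOpen_ne.mem_nhds hne1), e3]
      with p h1 h2 h3 using ⟨h1, h2, h3⟩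
  obtain ⟨δ, hδ, hball⟩ := Metric.eventually_nhds_iff.1 hgood
  -- the single colour
  have hsingle : ∀ s ∈ Ioo 0 η, s < δ → ∀ α ∈ B, |α - b| < δ →
      cell z (b + o * s) α ∈ U (e 0) := by
    intro s hs hsδ α hα hαδ
    have habs : |o * s| = s := by
      rcases ho with rfl | rfl
      · rw [one_mul, abs_of_pos hs.1]
      · rw [neg_one_mul, abs_neg, abs_of_pos hs.1]
    obtain ⟨g1, g2, g3⟩ := hball (y := (b + o * s, α)) (by
      rw [Prod.dist_eq, max_lt_iff]
      constructor
      · rw [Real.dist_eq]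
        show |b + o * s - b| < δ
        rw [show b + o * s - b = o * s by ring, habs]; exact hsδ
      · rw [Real.dist_eq]; exact hαδ)
    have g1 : T (cell z (b + o * s) α) ⊆ T (pt z (b + 2)) := g1
    have g2 : cell z (b + o * s) α ≠ z := g2
    have g3 : pt z (α + 3) ≠ pt z (b + o * s + 1) := g3
    refine C.irr.mem_of_single fun i hi => ?_
    -- `e 5` is absent
    have n5 : e 5 ∉ Pal U (cell z (b + o * s) α) := by
      have hev : ∀ᶠ v in 𝓝 (b + o * s + 1), e 5 ∈ T (pt z v) := by
        have h1 : Tendsto (fun v : ℝ => o * (v - 1 - b)) (𝓝 (b + o * s + 1)) (𝓝 s) := by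
          have : Continuous fun v : ℝ => o * (v - 1 - b) := by fun_prop
          have h2 := this.tendsto (b + o * s + 1)
          have h3 : o * (b + o * s + 1 - 1 - b) = s := by
            rcases ho with rfl | rfl <;> ring
          rwa [h3] at h2
        filter_upwards [h1.eventually (isOpen_Ioo.mem_nhds hs)] with v hv
        have h4 := hx _ hv ⟨5, by simp [ixs], rfl⟩
        have h6 : b + o * (o * (v - 1 - b)) + 1 = v := by
          rcases ho with rfl | rfl <;> ring
        rwa [h6] at h4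
      refine line_free C.irr (dist_pt z _) (ev_circle z hev) (cell_dist1 z _ _) g2 fun h7 => g3 ?_
      unfold cell at h7
      linear_combination h7
    -- `e 1` is absent
    have n1 : e 1 ∉ Pal U (cell z (b + o * s) α) := by
      have hev : ∀ᶠ v in 𝓝 (α + 3), e 1 ∈ T (pt z v) := by
        have h1 : Tendsto (fun v : ℝ => v - 3) (𝓝 (α + 3)) (𝓝 α) := by
          have : Continuous fun v : ℝ => v - 3 := by fun_prop
          have h2 := this.tendsto (α + 3)
          simpa using h2
        filter_upwards [h1.eventually (hB.mem_nhds hα)] with v hv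
        have h4 := hy _ hv ⟨1, by simp [ixs], rfl⟩
        rwa [show v - 3 + 3 = v by ring] at h4
      refine line_free C.irr (dist_pt z _) (ev_circle z hev) (cell_dist2 z _ _) g2 fun h7 => g3 ?_
      unfold cell at h7
      linear_combination -h7
    rcases hTy i (g1 hi) with h6 | h6 | h6
    · exact h6
    · exact absurd (C.irr.sub _ hi) (h6 ▸ n1)
    · exact absurd (C.irr.sub _ hi) (h6 ▸ n5)
  -- the length of the path
  set s1 := min (η / 2) (min (δ / 2) (1 / 2)) with hs1
  have hs1p : 0 < s1 := lt_min (by linarith) (lt_min (by linarith) (by norm_num))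
  have l1 : s1 ≤ η / 2 := min_le_left _ _
  have l2 : s1 ≤ δ / 2 := (min_le_right _ _).trans (min_le_left _ _)
  have l3 : s1 ≤ 1 / 2 := (min_le_right _ _).trans (min_le_right _ _)
  have hcr : cr (pt z b - z) (pt z (b + 2) - z) = √3 / 2 := by
    rw [cr_pt, ← sin_two_third]; congr 1; ring
  have h3p : 0 < √3 / 2 := by positivity
  have hdz : dist z (pt z (b + 2)) = 1 := by rw [dist_comm]; exact dist_pt z _
  have hb0 := continuous_hb z (pt z b) o
  -- the two ends
  have hev : ∀ᶠ t : ℝ in 𝓝[>] 0,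
      (o = 1 ∧ dist (pt z (b + 2)) (z + (pt z b - z) * (cis (o * t) - 1)) < 1 ∧
        1 < dist (cell z (b + o * s1) b) (z + (pt z b - z) * (cis (o * t) - 1))) ∨
      (o = -1 ∧ 1 < dist (pt z (b + 2)) (z + (pt z b - z) * (cis (o * t) - 1)) ∧
        dist (cell z (b + o * s1) b) (z + (pt z b - z) * (cis (o * t) - 1)) < 1) := by
    have hcd : Continuous fun t : ℝ =>
        dist (cell z (b + o * s1) b) (z + (pt z b - z) * (cis (o * t) - 1)) :=
      continuous_const.dist hb0
    rcases ho with rfl | rfl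
    · have h1 := hb_in (z := z) (u := pt z b) (o := 1) hdz (by rw [hcr]; linarith)
      have h2 : ∀ᶠ t : ℝ in 𝓝 0, 1 <
          dist (cell z (b + 1 * s1) b) (z + (pt z b - z) * (cis (1 * t) - 1)) := by
        refine hcd.continuousAt.eventually (Ioi_mem_nhds ?_)
        show 1 < dist (cell z (b + 1 * s1) b) (z + (pt z b - z) * (cis (1 * 0) - 1))
        rw [hb_zero, one_mul]
        exact cell_out z hs1p (by linarith)
      filter_upwards [h1, mem_nhdsWithin_of_mem_nhds h2] with t h3 h4
      exact Or.inl ⟨rfl, h3, h4⟩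
    · have h1 := hb_out (z := z) (u := pt z b) (o := -1) hdz (by rw [hcr]; linarith)
      have h2 : ∀ᶠ t : ℝ in 𝓝 0,
          dist (cell z (b + -1 * s1) b) (z + (pt z b - z) * (cis (-1 * t) - 1)) < 1 := by
        refine hcd.continuousAt.eventually (Iio_mem_nhds ?_)
        show dist (cell z (b + -1 * s1) b) (z + (pt z b - z) * (cis (-1 * 0) - 1)) < 1
        rw [hb_zero, show b + -1 * s1 = b - s1 by ring]
        exact cell_in z hs1p (by linarith)
      filter_upwards [h1, mem_nhdsWithin_of_mem_nhds h2] with t h3 h4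
      exact Or.inr ⟨rfl, h3, h4⟩
  obtain ⟨η', hη', hsub⟩ := mem_nhdsGT_iff_exists_Ioo_subset.1 hev
  refine ⟨η', hη', fun t ht hcon => ?_⟩
  have ht2 := hsub ht
  set w := z + (pt z b - z) * (cis (o * t) - 1) with hw
  -- choice of `α`
  have hα1 : ∀ᶠ α in 𝓝 b, |α - b| < δ ∧
      ((o = 1 ∧ dist (cell z b α) w < 1 ∧ 1 < dist (cell z (b + o * s1) α) w) ∨
      (o = -1 ∧ 1 < dist (cell z b α) w ∧ dist (cell z (b + o * s1) α) w < 1)) := by
    have k1 : Continuous fun α : ℝ => dist (cell z b α) w :=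
      ((cell_cont z).comp (continuous_const.prodMk continuous_id)).dist continuous_const
    have k2 : Continuous fun α : ℝ => dist (cell z (b + o * s1) α) w :=
      ((cell_cont z).comp (continuous_const.prodMk continuous_id)).dist continuous_const
    have k0 : ∀ᶠ α in 𝓝 b, |α - b| < δ := by
      have := Metric.ball_mem_nhds b hδ
      filter_upwards [this] with α hα
      rwa [Metric.mem_ball, Real.dist_eq] at hα
    have k1b : Tendsto (fun α : ℝ => dist (cell z b α) w) (𝓝 b) (𝓝 (dist (pt z (b + 2)) w)) := by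
      have := k1.tendsto b
      rwa [cell_self] at this
    have k2b := k2.tendsto b
    rcases ht2 with ⟨h1, h2, h3⟩ | ⟨h1, h2, h3⟩
    · have e1 : ∀ᶠ α in 𝓝 b, dist (cell z b α) w < 1 := k1b.eventually (Iio_mem_nhds h2)
      have e2 : ∀ᶠ α in 𝓝 b, 1 < dist (cell z (b + o * s1) α) w :=
        k2b.eventually (Ioi_mem_nhds h3)
      filter_upwards [k0, e1, e2] with α a0 a1 a2
      exact ⟨a0, Or.inl ⟨h1, a1, a2⟩⟩
    · have e1 : ∀ᶠ α in 𝓝 b, 1 < dist (cell z b α) w := k1b.eventually (Ioi_mem_nhds h2)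
      have e2 : ∀ᶠ α in 𝓝 b, dist (cell z (b + o * s1) α) w < 1 :=
        k2b.eventually (Iio_mem_nhds h3)
      filter_upwards [k0, e1, e2] with α a0 a1 a2
      exact ⟨a0, Or.inr ⟨h1, a1, a2⟩⟩
  obtain ⟨α, ⟨hαδ, hα⟩, hαB⟩ := mem_closure_iff_nhds.1 hbB _ hα1
  -- intermediate value
  have hcont : Continuous fun s : ℝ => dist (cell z (b + o * s) α) w :=
    ((cell_cont z).comp ((show Continuous fun s : ℝ => b + o * s by fun_prop).prodMk
      continuous_const)).dist continuous_const
  have hmem : (1 : ℝ) ∈ uIcc (dist (cell z (b + o * 0) α) w) (dist (cell z (b + o * s1) α) w) := by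
    rw [mul_zero, add_zero]
    rcases hα with ⟨-, h1, h2⟩ | ⟨-, h1, h2⟩
    · rw [uIcc_of_le (h1.le.trans h2.le)]; exact ⟨h1.le, h2.le⟩
    · rw [uIcc_of_ge (h2.le.trans h1.le)]; exact ⟨h2.le, h1.le⟩
  obtain ⟨s, hs, hs1'⟩ := intermediate_value_uIcc (a := 0) (b := s1) hcont.continuousOn hmem
  rw [uIcc_of_le hs1p.le] at hs
  have hs1' : dist (cell z (b + o * s) α) w = 1 := hs1'
  have hsne : s ≠ 0 := by
    rintro rfl
    rw [mul_zero, add_zero] at hs1'
    rcases hα with ⟨-, h1, -⟩ | ⟨-, h1, -⟩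
    · exact h1.ne hs1'
    · exact h1.ne' hs1'
  have hs0 : 0 < s := lt_of_le_of_ne hs.1 (Ne.symm hsne)
  exact C.irr.mx.notMem' (hsingle s ⟨hs0, by linarith [hs.2]⟩ (by linarith [hs.2]) α hαB hαδ)
    hs1' (C.irr.sub _ hcon)

/-- **(II)** -/
theorem froz_II : Fz (fx 1) (fy 1) := by
  intro U T z e C u A B hA hB huA huB hcov hAx hBy
  have hd : Disjoint A B := disj_AB C hA hB (c := 1) (fun t ht => by
      have := hAx t ht 1; simpa [fx] using this) (fun t ht => by
      have := hBy t ht 2
      rw [show t + 1 + 1 = t + (((2 : Fin 6).val : ℕ) : ℝ) by norm_num; ring]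
      simpa [fy] using this)
  obtain ⟨b, o, η, -, ho, hη, hbB, hbA⟩ := onesided hA hB hd huA huB hcov one_pos
  have hx : ∀ (k : Fin 6) (c : ℝ), (k.val : ℝ) = c → ∀ s ∈ Ioo 0 η,
      col e (fx 1 k) ⊆ T (pt z (b + o * s + c)) := by
    rintro k _ rfl s hs
    exact cl_sub C.irr (fun t ht => hAx t ht k) (hbA s hs)
  have hxb : ∀ (k : Fin 6) (c : ℝ), (k.val : ℝ) = c → col e (fx 1 k) ⊆ T (pt z (b + c)) := by
    rintro k _ rfl
    exact cl_sub C.irr (fun t ht => hAx t ht k) (end_mem hη hbA)
  have hy : ∀ (k : Fin 6) (c : ℝ), (k.val : ℝ) = c → col e (fy 1 k) ⊆ T (pt z (b + c)) := by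
    rintro k _ rfl
    exact cl_sub C.irr (fun t ht => hBy t ht k) hbB
  have hpi : 0 < Real.pi / 3 := by positivity
  refine three_hb C.irr C.mem_XX (b := b) (o := o) (x := e 4) ho ?_ ?_ ?_
  · obtain ⟨η', hη', hfree⟩ := cell_free (A := A) C hB ho hη hbB
      (fun s hs => hx 1 1 (by norm_num) s hs)
      (fun α hα => by
        have := hBy α hα 3
        simpa [fy] using this) (hxb 2 2 (by norm_num)) (hy 2 2 (by norm_num))
    refine half_branch2 C.irr (dist_pt z _) ho (P := col e 1) (η := η * (Real.pi / 3))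
      (η' := η') (x' := e 0) (mul_pos hη hpi) hη' (fun t ht => ?_) (C.clean _ ?_) hfree ?_
    · have h1 : z + (pt z b - z) * cis (o * t) = pt z (b + o * (t / (Real.pi / 3)) + 0) := by
        unfold pt
        have e1 : (b + o * (t / (Real.pi / 3)) + 0) * (Real.pi / 3) =
            b * (Real.pi / 3) + o * t := by
          field_simp
          ring
        rw [e1, cis_add]; ring
      rw [h1]
      refine hx 0 0 (by simp) _ ⟨div_pos ht.1 hpi, ?_⟩
      rw [div_lt_iff₀ hpi]
      exact ht.2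
    · rw [← pt_three]; exact dist_pt z _
    · rw [← pt_three]
      have h1 : col e 2 ⊆ T (pt z (b + 3)) := hxb 3 3 (by norm_num)
      intro i hi
      obtain ⟨y, rfl⟩ := C.bij.2 i
      have hy5 : y ≠ 5 := (C.pal y).1 hi
      have key : ∀ y : Fin 6, y ≠ 5 → y = 4 ∨ y = 0 ∨ y ∈ ixs 2 ∨ y ∈ ixs 1 := by decide
      rcases key y hy5 with rfl | rfl | h2 | h2
      · exact Or.inl rfl
      · exact Or.inr (Or.inl rfl)
      · exact Or.inr (Or.inr (Or.inl (h1 ⟨y, h2, rfl⟩)))
      · exact Or.inr (Or.inr (Or.inr ⟨y, h2, rfl⟩))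
  · exact hb_pt C (b := b) (c := 2) ho hη (l := 0) (m := 2) (x := 4)
      (fun s hs => hx 2 2 (by norm_num) s hs)
      (by rw [show b + 2 + 3 = b + 5 by ring]; exact hy 5 5 (by norm_num)) (by decide)
  · exact hb_pt C (b := b) (c := 4) ho hη (l := 0) (m := 2) (x := 4)
      (fun s hs => hx 4 4 (by norm_num) s hs)
      (by
        rw [show b + 4 + 3 = b + 1 + 6 by ring, pt_six]
        exact hy 1 1 (by norm_num)) (by decide)

end Vale.Agent.P032.S5.H220
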