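import Vale.Agent.P032.S5.H220.TwoHex
import Vale.Agent.P032.Words5.H819.Word5

/-!
# P032: the field `nofr` of the word of a clean five coloured centre

`Fz i` : the geometric statement about the frozen event `i` (two open sets of times).  From it the
field `nofr` of `Word5` and of `Pent` for the letters `X5`.
-/

open Set Filter Topology Metric

noncomputable section

namespace Vale.Agent.P032.S5.H220

open Vale.Agent.P032.Six Vale.Agent.P032.Words Vale.Agent.P032.S5.H122
  Vale.Agent.P032.Words.Pent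

open Vale.Agent.P032.S5.H767 hiding col

variable {U : Fin 6 → Set ℂ} {T : ℂ → Set (Fin 6)} {z : ℂ} {e : Fin 6 → Fin 6}

/-- the geometric statement for the frozen hexagons `x`, `y` -/
def Fz (x y : Fin 6 → Fin 6) : Prop :=
  ∀ (U : Fin 6 → Set ℂ) (T : ℂ → Set (Fin 6)) (z : ℂ) (e : Fin 6 → Fin 6), Cn U T z e →
    ∀ (u : ℝ) (A B : Set ℝ), IsOpen A → IsOpen B → u ∈ closure A → u ∈ closure B →
      (∀ᶠ t in 𝓝 u, t ∈ closure A ∨ t ∈ closure B) →
      (∀ t ∈ A, ∀ k : Fin 6, col e (x k) ⊆ T (pt z (t + (k.val : ℝ)))) →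
      (∀ t ∈ B, ∀ k : Fin 6, col e (y k) ⊆ T (pt z (t + (k.val : ℝ)))) → False

/-- renaming of the colours behind `mapL` -/
def mapC (a : Fin 5) (s : Bool) (l : Fin 6) : Fin 6 :=
  if l = 5 then 5 else
    ⟨(a.val + (if s then 6 - l.val else l.val)) % 5, by omega⟩

theorem mapC_five (a : Fin 5) (s : Bool) (l : Fin 6) : mapC a s l = 5 ↔ l = 5 := by
  revert a s l; decide

theorem mapC_inj (a : Fin 5) (s : Bool) : Function.Injective (mapC a s) := by
  intro l m
  revert a s l m; decide

theorem mapC_ixs (a : Fin 5) (s : Bool) (l : Fin 6) :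
    (ixs l).image (mapC a s) = ixs (mapL a s l) := by
  revert a s l; decide

theorem col_map (e : Fin 6 → Fin 6) (a : Fin 5) (s : Bool) (l : Fin 6) :
    col (fun m => e (mapC a s m)) l = col e (mapL a s l) := by
  unfold col
  rw [← mapC_ixs, Finset.coe_image, ← image_comp]
  rfl

theorem mapL_surj (a : Fin 5) (s : Bool) (l : Fin 6) : ∃ m, mapL a s m = l := by
  revert a s l; decide

theorem Cn_map (C : Cn U T z e) (a : Fin 5) (s : Bool) : Cn U T z (fun m => e (mapC a s m)) where
  irr := C.irr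
  inj := C.inj.comp (mapC_inj a s)
  pal := fun l => by
    rw [C.pal]
    exact not_congr (mapC_five a s l)
  clean := C.clean
  pairs := fun q hq h2 hs => by
    obtain ⟨l, hl⟩ := C.pairs q hq h2 hs
    obtain ⟨m, hm⟩ := mapL_surj a s l
    exact ⟨m, by rw [hl, col_map, hm]⟩

theorem disj_map (a : Fin 5) (s : Bool) (l m : Fin 6) :
    Disjoint (ixs (mapL a s l)) (ixs (mapL a s m)) ↔ Disjoint (ixs l) (ixs m) := by
  revert a s l m; decide +kernel

theorem ant_map (a : Fin 5) (s : Bool) (l m : Fin 6) :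
    ant (mapL a s l) (mapL a s m) = ant l m := by
  revert a s l m; decide +kernel

/-- the choice between the two hexagons -/
def mix (i : Fin 3) (b : Fin 6 → Bool) : Fin 6 → Fin 6 := fun k => if b k then fx i k else fy i k

theorem base_dec : ∀ (i : Fin 3) (b0 b1 b2 b3 b4 b5 : Bool),
    legH (mix i ![b0, b1, b2, b3, b4, b5]) →
      mix i ![b0, b1, b2, b3, b4, b5] = fx i ∨ mix i ![b0, b1, b2, b3, b4, b5] = fy i := by
  decide +kernel

theorem base_dec' (i : Fin 3) (b : Fin 6 → Bool) (h : legH (mix i b)) :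
    mix i b = fx i ∨ mix i b = fy i := by
  have e1 : b = ![b 0, b 1, b 2, b 3, b 4, b 5] := by
    funext k; fin_cases k <;> rfl
  rw [e1] at h ⊢
  exact base_dec i _ _ _ _ _ _ h

theorem legH_tr {a : Fin 5} {s : Bool} {q : Fin 6} {h : Fin 6 → Fin 6}
    (hh : legH (trH a s q false h)) : legH h := by
  obtain ⟨h1, h2⟩ := hh
  refine ⟨fun k => ?_, fun k => ?_⟩
  · have := h1 (k - q)
    simp only [trH, Bool.false_eq_true, if_false] at this
    rw [disj_map] at this
    have e1 : q + (k - q) = k := by abel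
    have e2 : q + (k - q + 1) = k + 1 := by abel
    rwa [e1, e2] at this
  · have := h2 (k - q)
    simp only [trH, Bool.false_eq_true, if_false] at this
    rw [ant_map] at this
    have e1 : q + (k - q) = k := by abel
    have e2 : q + (k - q + 3) = k + 3 := by abel
    rwa [e1, e2] at this

theorem tr_dec (i : Fin 3) (a : Fin 5) (s : Bool) (q : Fin 6) (h : Fin 6 → Fin 6)
    (hh : ∀ k, h k = trH a s q false (fx i) k ∨ h k = trH a s q false (fy i) k) (hl : legH h) :
    h = trH a s q false (fx i) ∨ h = trH a s q false (fy i) := by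
  let b : Fin 6 → Bool := fun k => decide (h (k - q) = trH a s q false (fx i) (k - q))
  have e1 : h = trH a s q false (mix i b) := by
    funext k
    show h k = mapL a s (mix i b (q + k))
    have e2 : q + k - q = k := by abel
    simp only [mix, b, e2]
    by_cases hk : h k = trH a s q false (fx i) k
    · rw [decide_eq_true hk, if_pos rfl]; exact hk
    · rw [decide_eq_false hk]
      simp only [Bool.false_eq_true, if_false]
      exact (hh k).resolve_left hk
  rw [e1] at hl
  rcases base_dec' i b (legH_tr hl) with h1 | h1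
  · left; rw [e1, h1]
  · right; rw [e1, h1]

theorem base_ne : ∀ (i : Fin 3) (k : Fin 6), fx i k ≠ fy i k := by decide

theorem mapL_inj : ∀ (a : Fin 5) (s : Bool) (l m : Fin 6), mapL a s l = mapL a s m → l = m := by
  decide

/-- mirror images of the positions -/
theorem mirror : ∀ (i : Fin 3) (q : Fin 6), ∃ q' : Fin 6, ∀ k : Fin 6,
    fx i (q - k) = fx i (q' + k) ∧ fy i (q - k) = fy i (q' + k) := by
  decide +kernel

/-- **No frozen events** for the letters `X5`. -/
theorem nofr_false (H : ∀ i : Fin 3, Fz (fx i) (fy i)) (C : Cn U T z e) (i : Fin 3) (a : Fin 5)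
    (s : Bool) (q : Fin 6) (u : ℝ)
    (hx : ∀ k : Fin 6, u + (k.val : ℝ) ∈ X5 T z e (trH a s q false (fx i) k))
    (hy : ∀ k : Fin 6, u + (k.val : ℝ) ∈ X5 T z e (trH a s q false (fy i) k)) : False := by
  obtain ⟨A, B, hA, hB, huA, huB, hcov, -, -, hA2, hB2⟩ := two_hex5 C (tr_dec i a s q)
    (fun k he => base_ne i (q + k) (mapL_inj a s _ _ he)) hx hy
  -- shift of the time
  have hsh : ∀ (D : Set ℝ), IsOpen D → IsOpen ((fun t : ℝ => t + (((-q : Fin 6).val : ℕ) : ℝ)) '' D) := by
    intro D hD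
    exact (Homeomorph.addRight (((-q : Fin 6).val : ℕ) : ℝ)).isOpenMap D hD
  have hcl : ∀ (D : Set ℝ) (t : ℝ), t ∈ closure D → t + (((-q : Fin 6).val : ℕ) : ℝ) ∈
      closure ((fun t : ℝ => t + (((-q : Fin 6).val : ℕ) : ℝ)) '' D) := by
    intro D t ht
    have h1 := (Homeomorph.addRight (((-q : Fin 6).val : ℕ) : ℝ)).image_closure D
    have h2 : (⇑(Homeomorph.addRight (((-q : Fin 6).val : ℕ) : ℝ))) =
      fun t : ℝ => t + (((-q : Fin 6).val : ℕ) : ℝ) := rfl
    rw [h2] at h1
    rw [← h1]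
    exact ⟨t, ht, rfl⟩
  have hT : ∀ (h : Fin 6 → Fin 6) (D : Set ℝ),
      (∀ t ∈ D, ∀ k : Fin 6, col e (trH a s q false h k) ⊆ T (pt z (t + (k.val : ℝ)))) →
      ∀ t ∈ (fun t : ℝ => t + (((-q : Fin 6).val : ℕ) : ℝ)) '' D, ∀ k : Fin 6,
        col (fun m => e (mapC a s m)) (h k) ⊆ T (pt z (t + (k.val : ℝ))) := by
    rintro h D hD _ ⟨t, ht, rfl⟩ k
    have h1 := hD t ht (-q + k)
    simp only [trH, Bool.false_eq_true, if_false] at h1
    have e1 : q + (-q + k) = k := by abel
    rw [e1, ← col_map] at h1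
    have h2 : pt z (t + (((-q : Fin 6).val : ℕ) : ℝ) + (k.val : ℝ)) =
        pt z (t + (((-q + k : Fin 6).val : ℕ) : ℝ)) := by
      have hk := k.isLt
      have hj := (-q : Fin 6).isLt
      have h3 : (-q + k : Fin 6).val = ((-q : Fin 6).val + k.val) % 6 := by rw [Fin.val_add]
      by_cases h4 : (-q : Fin 6).val + k.val < 6
      · rw [h3, Nat.mod_eq_of_lt h4]
        congr 1; push_cast; ring
      · have h5 : ((-q : Fin 6).val + k.val) % 6 = (-q : Fin 6).val + k.val - 6 := by omega
        have h6 : (-q : Fin 6).val + k.val - 6 + 6 = (-q : Fin 6).val + k.val := by omega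
        rw [h3, h5, ← pt_six z (t + _)]
        congr 1
        have h7 : (((-q : Fin 6).val + k.val - 6 + 6 : ℕ) : ℝ) =
          (((-q : Fin 6).val + k.val : ℕ) : ℝ) := by rw [h6]
        push_cast at h7 ⊢
        linarith
    show _ ⊆ T (pt z (t + (((-q : Fin 6).val : ℕ) : ℝ) + (k.val : ℝ)))
    rw [h2]
    exact h1
  refine H i U T z _ (Cn_map C a s) (u + (((-q : Fin 6).val : ℕ) : ℝ)) _ _ (hsh A hA) (hsh B hB)
    (hcl A u huA) (hcl B u huB) ?_ (hT _ A hA2) (hT _ B hB2)
  have h1 : Tendsto (fun t : ℝ => t - (((-q : Fin 6).val : ℕ) : ℝ))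
      (𝓝 (u + (((-q : Fin 6).val : ℕ) : ℝ))) (𝓝 u) := by
    have : Continuous fun t : ℝ => t - (((-q : Fin 6).val : ℕ) : ℝ) := by fun_prop
    have h2 := this.tendsto (u + (((-q : Fin 6).val : ℕ) : ℝ))
    simpa using h2
  filter_upwards [h1.eventually hcov] with t ht
  rcases ht with h2 | h2
  · left
    have := hcl A _ h2
    simpa using this
  · right
    have := hcl B _ h2
    simpa using this

/-- 819's field `nofr` -/
theorem nofr_word5 (H : ∀ i : Fin 3, Fz (fx i) (fy i)) (C : Cn U T z e) (i : Fin 3) (a : Fin 5)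
    (s : Bool) (q : Fin 6) (t : Bool) (u : ℝ)
    (hx : ∀ k : Fin 6, u + (k.val : ℝ) ∈ X5 T z e (trH a s q t (fx i) k))
    (hy : ∀ k : Fin 6, u + (k.val : ℝ) ∈ X5 T z e (trH a s q t (fy i) k)) : False := by
  cases t with
  | false => exact nofr_false H C i a s q u hx hy
  | true =>
    obtain ⟨q', hq'⟩ := mirror i q
    refine nofr_false H C i a s q' u (fun k => ?_) (fun k => ?_)
    · have := hx k
      simp only [trH, if_true] at this
      rw [(hq' k).1] at this
      simpa [trH] using this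
    · have := hy k
      simp only [trH, if_true] at this
      rw [(hq' k).2] at this
      simpa [trH] using this

end Vale.Agent.P032.S5.H220
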