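import Vale.Agent.P032.S5.H220.FrozII

/-!
# P032: a clean five coloured centre has no frozen events
-/

open Set Filter Topology Metric

noncomputable section

namespace Vale.Agent.P032.S5.H220

open Vale.Agent.P032.Six Vale.Agent.P032.Words Vale.Agent.P032.S5.H122
  Vale.Agent.P032.Words.Pent Vale.Agent.P032.S5.H450

open Vale.Agent.P032.S5.H767 hiding col

variable {U : Fin 6 → Set ℂ} {T : ℂ → Set (Fin 6)} {z : ℂ} {e : Fin 6 → Fin 6}

theorem froz_all : ∀ i : Fin 3, Fz (fx i) (fy i) := by
  intro i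
  fin_cases i
  · exact froz_I
  · exact froz_II
  · exact froz_A

/-- **No frozen events** (field `nofr` of `Word5` for the letters `X5`), without hypotheses -/
theorem no_frozen (C : Cn U T z e) (i : Fin 3) (a : Fin 5) (s : Bool) (q : Fin 6) (t : Bool)
    (u : ℝ) (hx : ∀ k : Fin 6, u + (k.val : ℝ) ∈ X5 T z e (trH a s q t (fx i) k))
    (hy : ∀ k : Fin 6, u + (k.val : ℝ) ∈ X5 T z e (trH a s q t (fy i) k)) : False :=
  nofr_word5 froz_all C i a s q t u hx hy

end Vale.Agent.P032.S5.H220
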