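import Vale.Agent.P032.S5.H122.Raw5

/-!
# P032: times of two hexagons near a frozen event

`X` : closed letter sets on the line, at a dense set of times exactly one letter.  If at `u` the six
palettes are `{x k, y k}` and only the hexagons `x`, `y` are legal inside them, then near `u` the times
of the hexagon `x` and the times of the hexagon `y` are two open sets with dense union, and both
accumulate at `u`.
-/

open Set Filter Topology Metric

noncomputable section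

namespace Vale.Agent.P032.S5.H220

variable {X : Fin 6 → Set ℝ}

/-- the times where only the letter `x k` occurs at the position `k` -/
def Tm (X : Fin 6 → Set ℝ) (x : Fin 6 → Fin 6) : Set ℝ :=
  {t | ∀ k l : Fin 6, l ≠ x k → t + (k.val : ℝ) ∉ X l}

/-- exactly the letter `l` -/
def Ex1 (X : Fin 6 → Set ℝ) (l : Fin 6) : Set ℝ := {u | ∀ m, u ∈ X m ↔ m = l}

theorem Tm_open (hc : ∀ l, IsClosed (X l)) (x : Fin 6 → Fin 6) : IsOpen (Tm X x) := by
  have : Tm X x = ⋂ k : Fin 6, ⋂ l : Fin 6, {t | l ≠ x k → t + (k.val : ℝ) ∉ X l} := by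
    ext t; simp [Tm]
  rw [this]
  refine isOpen_iInter_of_finite fun k => isOpen_iInter_of_finite fun l => ?_
  by_cases h : l = x k
  · convert isOpen_univ using 1
    ext t; simp [h]
  · have : {t : ℝ | l ≠ x k → t + (k.val : ℝ) ∉ X l} = (fun t : ℝ => t + (k.val : ℝ)) ⁻¹' (X l)ᶜ := by
      ext t; simp [h]
    rw [this]
    exact (hc l).isOpen_compl.preimage (by fun_prop)

theorem Ex1_open (hc : ∀ l, IsClosed (X l)) (hcov : ∀ u, ∃ l, u ∈ X l) (l : Fin 6) :
    IsOpen (Ex1 X l) := by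
  have : Ex1 X l = ⋂ m : Fin 6, {t | m ≠ l → t ∉ X m} := by
    ext t
    simp only [Ex1, mem_ofPred_eq, mem_iInter]
    constructor
    · intro h m hm hX; exact hm ((h m).1 hX)
    · intro h m
      constructor
      · intro hX; by_contra hm; exact h m hm hX
      · rintro rfl
        obtain ⟨n, hn⟩ := hcov t
        by_cases hnm : n = m
        · exact hnm ▸ hn
        · exact absurd hn (h n hnm)
  rw [this]
  refine isOpen_iInter_of_finite fun m => ?_
  by_cases h : m = l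
  · convert isOpen_univ using 1
    ext t; simp [h]
  · have : {t : ℝ | m ≠ l → t ∉ X m} = (X m)ᶜ := by
      ext t; simp [h]
    rw [this]
    exact (hc m).isOpen_compl

/-- `x k` is at the position `k` for the times of `x` -/
theorem Tm_mem (hcov : ∀ u, ∃ l, u ∈ X l) {x : Fin 6 → Fin 6} {t : ℝ} (ht : t ∈ Tm X x)
    (k : Fin 6) : t + (k.val : ℝ) ∈ X (x k) := by
  obtain ⟨l, hl⟩ := hcov (t + (k.val : ℝ))
  by_cases h : l = x k
  · exact h ▸ hl
  · exact absurd hl (ht k l h)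

/-- **Two hexagons.** -/
theorem two_hex (hc : ∀ l, IsClosed (X l)) (hcov : ∀ u, ∃ l, u ∈ X l)
    (hgen : Dense {u | ∃ l, ∀ m, u ∈ X m ↔ m = l}) (hreg : ∀ l, X l ⊆ closure (Ex1 X l))
    {Leg : (Fin 6 → Fin 6) → Prop}
    (hleg : ∀ t h, (∀ k m : Fin 6, t + (k.val : ℝ) ∈ X m ↔ m = h k) → Leg h)
    {x y : Fin 6 → Fin 6} (hdec : ∀ h, (∀ k, h k = x k ∨ h k = y k) → Leg h → h = x ∨ h = y)
    (h0 : x 0 ≠ y 0) {u : ℝ} (hx0 : u ∈ X (x 0)) (hy0 : u ∈ X (y 0))
    (honly : ∀ k l : Fin 6, u + (k.val : ℝ) ∈ X l → l = x k ∨ l = y k) :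
    u ∈ closure (Tm X x) ∧ u ∈ closure (Tm X y) ∧
      ∀ᶠ t in 𝓝 u, t ∈ closure (Tm X x) ∨ t ∈ closure (Tm X y) := by
  -- near `u`
  have hnear : ∀ᶠ t in 𝓝 u, ∀ k l : Fin 6, t + (k.val : ℝ) ∈ X l → l = x k ∨ l = y k := by
    rw [eventually_all]
    intro k
    rw [eventually_all]
    intro l
    by_cases h : u + (k.val : ℝ) ∈ X l
    · exact Eventually.of_forall fun v _ => honly k l h
    · have hcn : Continuous fun v : ℝ => v + (k.val : ℝ) := by fun_prop
      filter_upwards [(hcn.tendsto u).eventually ((hc l).isOpen_compl.mem_nhds h)] with v hv hv'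
      exact absurd hv' hv
  obtain ⟨N, hN, hNo, huN⟩ := _root_.mem_nhds_iff.1 hnear
  have hN : ∀ t ∈ N, ∀ k l : Fin 6, t + (k.val : ℝ) ∈ X l → l = x k ∨ l = y k := fun t ht => hN ht
  -- generic times
  let G : Fin 6 → Set ℝ := fun k => {t | ∃ l, ∀ m, t + (k.val : ℝ) ∈ X m ↔ m = l}
  have hGo : ∀ k, IsOpen (G k) := by
    intro k
    have : G k = (fun t : ℝ => t + (k.val : ℝ)) ⁻¹' (⋃ l, Ex1 X l) := by
      ext t; simp [G, Ex1]
    rw [this]
    exact (isOpen_iUnion fun l => Ex1_open hc hcov l).preimage (by fun_prop)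
  have hGd : ∀ k, Dense (G k) := by
    intro k
    have h1 : G k = ⇑(Homeomorph.addRight (k.val : ℝ)) ⁻¹' {u | ∃ l, ∀ m, u ∈ X m ↔ m = l} := by
      ext t; simp [G]
    rw [h1]
    exact hgen.preimage (Homeomorph.addRight (k.val : ℝ)).isOpenMap
  have hD : Dense (⋂ k, G k) := dense_iInter_of_isOpen hGo hGd
  have hGO : IsOpen (⋂ k, G k) := isOpen_iInter_of_finite hGo
  have key : ∀ t ∈ N, t ∈ (⋂ k, G k) → ∃ h : Fin 6 → Fin 6,
      (∀ k m : Fin 6, t + (k.val : ℝ) ∈ X m ↔ m = h k) ∧ (h = x ∨ h = y) := by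
    intro t ht htG
    choose h hh using fun k => mem_iInter.1 htG k
    refine ⟨h, hh, hdec h (fun k => hN t ht k _ ((hh k _).2 rfl)) (hleg t h hh)⟩
  have keyT : ∀ (h : Fin 6 → Fin 6) (t : ℝ),
      (∀ k m : Fin 6, t + (k.val : ℝ) ∈ X m ↔ m = h k) → t ∈ Tm X h := by
    intro h t hh k l hl hX
    exact hl ((hh k l).1 hX)
  refine ⟨?_, ?_, ?_⟩
  · rw [_root_.mem_closure_iff]
    intro O hO huO
    obtain ⟨v, hv, hv2⟩ := _root_.mem_closure_iff.1 (hreg _ hx0) _ (hO.inter hNo) ⟨huO, huN⟩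
    obtain ⟨t, ht1, ht2⟩ := hD.inter_open_nonempty _
      ((hO.inter hNo).inter (Ex1_open hc hcov (x 0))) ⟨v, hv, hv2⟩
    obtain ⟨h, hh, h3⟩ := key t ht1.1.2 ht2
    have e0 : h 0 = x 0 := by
      have h5 := (ht1.2 (h 0)).1 (by
        have := (hh 0 (h 0)).2 rfl
        simpa using this)
      exact h5
    rcases h3 with rfl | rfl
    · exact ⟨t, ht1.1.1, keyT _ t hh⟩
    · exact absurd e0.symm h0
  · rw [_root_.mem_closure_iff]
    intro O hO huO
    obtain ⟨v, hv, hv2⟩ := _root_.mem_closure_iff.1 (hreg _ hy0) _ (hO.inter hNo) ⟨huO, huN⟩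
    obtain ⟨t, ht1, ht2⟩ := hD.inter_open_nonempty _
      ((hO.inter hNo).inter (Ex1_open hc hcov (y 0))) ⟨v, hv, hv2⟩
    obtain ⟨h, hh, h3⟩ := key t ht1.1.2 ht2
    have e0 : h 0 = y 0 := by
      have h5 := (ht1.2 (h 0)).1 (by
        have := (hh 0 (h 0)).2 rfl
        simpa using this)
      exact h5
    rcases h3 with rfl | rfl
    · exact absurd e0 h0
    · exact ⟨t, ht1.1.1, keyT _ t hh⟩
  · filter_upwards [hNo.mem_nhds huN] with t ht
    have h1 : t ∈ closure (Tm X x ∪ Tm X y) := by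
      rw [_root_.mem_closure_iff]
      intro O hO htO
      obtain ⟨s, hs1, hs2⟩ := hD.inter_open_nonempty _ (hO.inter hNo) ⟨t, htO, ht⟩
      obtain ⟨h, hh, h3⟩ := key s hs1.2 hs2
      refine ⟨s, hs1.1, ?_⟩
      rcases h3 with rfl | rfl
      · exact Or.inl (keyT _ s hh)
      · exact Or.inr (keyT _ s hh)
    rw [closure_union] at h1
    exact h1

end Vale.Agent.P032.S5.H220

namespace Vale.Agent.P032.S5.H122

open Vale.Agent.P032.Six Vale.Agent.P032.S5.H767 Vale.Agent.P032.Words Vale.Agent.P032.S5.H220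

variable {U : Fin 6 → Set ℂ} {T : ℂ → Set (Fin 6)} {z : ℂ} {e : Fin 6 → Fin 6}

/-- legal hexagons -/
def legH (h : Fin 6 → Fin 6) : Prop :=
  (∀ k : Fin 6, Disjoint (ixs (h k)) (ixs (h (k + 1)))) ∧ ∀ k : Fin 6, ant (h k) (h (k + 3)) = true

instance (h : Fin 6 → Fin 6) : Decidable (legH h) := by unfold legH; infer_instance

/-- position shifts -/
theorem pos_add (X : Fin 6 → Set ℝ) (hper : ∀ l u, u + 6 ∈ X l ↔ u ∈ X l) (u : ℝ) (k j : Fin 6)
    (l : Fin 6) : u + (k.val : ℝ) + (j.val : ℝ) ∈ X l ↔ u + ((k + j).val : ℝ) ∈ X l := by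
  have hk := k.isLt
  have hj := j.isLt
  have h1 : (k + j).val = (k.val + j.val) % 6 := by rw [Fin.val_add]
  by_cases h : k.val + j.val < 6
  · rw [h1, Nat.mod_eq_of_lt h]
    have : u + (k.val : ℝ) + (j.val : ℝ) = u + ((k.val + j.val : ℕ) : ℝ) := by push_cast; ring
    rw [this]
  · have h2 : (k.val + j.val) % 6 = k.val + j.val - 6 := by omega
    have h3 : k.val + j.val - 6 + 6 = k.val + j.val := by omega
    rw [h1, h2, ← hper l (u + ((k.val + j.val - 6 : ℕ) : ℝ))]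
    have : u + (k.val : ℝ) + (j.val : ℝ) = u + ((k.val + j.val - 6 : ℕ) : ℝ) + 6 := by
      have h4 : ((k.val + j.val - 6 + 6 : ℕ) : ℝ) = ((k.val + j.val : ℕ) : ℝ) := by rw [h3]
      push_cast at h4 ⊢
      linarith
    rw [this]

theorem leg_of (C : Cn U T z e) {t : ℝ} {h : Fin 6 → Fin 6}
    (hh : ∀ k m : Fin 6, t + (k.val : ℝ) ∈ X5 T z e m ↔ m = h k) : legH h := by
  have hp := pos_add (X5 T z e) (fun l u => X5_per l u) t
  refine ⟨fun k => ?_, fun k => ?_⟩
  · refine sixty C (u := t + (k.val : ℝ)) (hh k) fun n => ?_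
    have := hp k 1 n
    rw [show (((1 : Fin 6).val : ℕ) : ℝ) = 1 by norm_num] at this
    rw [this]
    exact hh (k + 1) n
  · refine anti3 C (u := t + (k.val : ℝ)) (hh k) fun n => ?_
    have := hp k 3 n
    rw [show (((3 : Fin 6).val : ℕ) : ℝ) = 3 by norm_num] at this
    rw [this]
    exact hh (k + 3) n

theorem X5_reg (l : Fin 6) : X5 T z e l ⊆ closure (Ex1 (X5 T z e) l) :=
  closure_mono fun _ hu _ => mem_X5_of_Dl hu

/-- **Two hexagons** at a clean five coloured centre. -/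
theorem two_hex5 (C : Cn U T z e) {x y : Fin 6 → Fin 6}
    (hdec : ∀ h, (∀ k, h k = x k ∨ h k = y k) → legH h → h = x ∨ h = y) (hxy : ∀ k, x k ≠ y k)
    {u : ℝ} (hx : ∀ k : Fin 6, u + (k.val : ℝ) ∈ X5 T z e (x k))
    (hy : ∀ k : Fin 6, u + (k.val : ℝ) ∈ X5 T z e (y k)) :
    ∃ A B : Set ℝ, IsOpen A ∧ IsOpen B ∧ u ∈ closure A ∧ u ∈ closure B ∧
      (∀ᶠ t in 𝓝 u, t ∈ closure A ∨ t ∈ closure B) ∧
      (∀ t ∈ A, ∀ k m : Fin 6, t + (k.val : ℝ) ∈ X5 T z e m ↔ m = x k) ∧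
      (∀ t ∈ B, ∀ k m : Fin 6, t + (k.val : ℝ) ∈ X5 T z e m ↔ m = y k) ∧
      (∀ t ∈ A, ∀ k : Fin 6, col e (x k) ⊆ T (pt z (t + (k.val : ℝ)))) ∧
      (∀ t ∈ B, ∀ k : Fin 6, col e (y k) ⊆ T (pt z (t + (k.val : ℝ)))) := by
  have hcov := cover (e := e) (z := z) C.irr
  have h1 := two_hex (X := X5 T z e) (fun l => X5_closed l) hcov (gen C.irr) X5_reg
    (Leg := legH) (fun t h hh => leg_of C hh) hdec (hxy 0) (u := u)
    (by have := hx 0; simpa using this) (by have := hy 0; simpa using this)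
    (fun k l hl => by
      rcases two C (hx k) (hy k) hl with h | h | h
      · exact absurd h (hxy k)
      · exact Or.inr h.symm
      · exact Or.inl h)
  have hmem : ∀ (h : Fin 6 → Fin 6) (t : ℝ), t ∈ Tm (X5 T z e) h → ∀ k m : Fin 6,
      t + (k.val : ℝ) ∈ X5 T z e m ↔ m = h k := by
    intro h t ht k m
    constructor
    · intro hm
      by_contra hne
      exact ht k m hne hm
    · rintro rfl
      exact Tm_mem hcov ht k
  exact ⟨Tm (X5 T z e) x, Tm (X5 T z e) y, Tm_open (fun l => X5_closed l) x,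
    Tm_open (fun l => X5_closed l) y, h1.1, h1.2.1, h1.2.2, hmem x, hmem y,
    fun t ht k => X5_col C (Tm_mem hcov ht k), fun t ht k => X5_col C (Tm_mem hcov ht k)⟩

end Vale.Agent.P032.S5.H122
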